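import Vale.Agent.P181.H774.Kit

/-!
P181, row KEY: one factor `φ` of a `q`-th power may be replaced by `h`, with norms.
-/

set_option autoImplicit false

namespace Vale.Agent.P181.H774

open Finset Vale.Agent.P181.H303 Polynomial

section Hom

variable {A : Type*} [CommRing A] [Algebra ℂ A]

lemma aeval_hom (p : ℂ[X]) (n : ℕ) (φ y : A) :
    MvPolynomial.aeval ![y, φ] (p.homogenize n) =
      ∑ j ∈ range (n + 1), p.coeff j • (y ^ j * φ ^ (n - j)) := by
  rw [homogenize, map_sum, Finset.Nat.sum_antidiagonal_eq_sum_range_succ_mk]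
  apply Finset.sum_congr rfl
  intro j _
  rw [MvPolynomial.aeval_monomial, Algebra.smul_def]
  congr 1
  rw [Finsupp.prod_fintype _ _ (fun i => by simp), Fin.prod_univ_two]
  simp

lemma homogenize_pow' (p : ℂ[X]) {s : ℕ} (hp : p.natDegree ≤ s) (q : ℕ) :
    (p ^ q).homogenize (s * q) = (p.homogenize s) ^ q := by
  induction q with
  | zero => simp
  | succ q ih =>
    rw [pow_succ, pow_succ, mul_add, mul_one, homogenize_mul _ _ ?_ hp, ih]
    refine natDegree_pow_le.trans ?_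
    rw [mul_comm s q]
    exact Nat.mul_le_mul_left q hp

/-- The `q`-th power of a homogenised polynomial. -/
lemma hom_pow (p : ℂ[X]) {s : ℕ} (hp : p.natDegree ≤ s) (φ y : A) (q : ℕ) :
    (∑ j ∈ range (s + 1), p.coeff j • (y ^ j * φ ^ (s - j))) ^ q =
      ∑ m ∈ range (s * q + 1), (p ^ q).coeff m • (y ^ m * φ ^ (s * q - m)) := by
  rw [← aeval_hom, ← aeval_hom, homogenize_pow' p hp, map_pow]

end Hom

lemma root_coeff {q : ℕ} {s : ℕ} {p : ℂ[X]} (hp : X ^ (s + 1) ∣ p ^ q - (1 + X)) :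
    (1 ≤ s → (p ^ q).coeff 1 = 1) ∧ ∀ m, 2 ≤ m → m ≤ s → (p ^ q).coeff m = 0 := by
  obtain ⟨r, hr⟩ := hp
  have h1 : p ^ q = 1 + X + X ^ (s + 1) * r := by
    rw [← hr]
    ring
  constructor
  · intro hs
    rw [h1, coeff_add, coeff_add, coeff_one, coeff_X_one, coeff_X_pow_mul', if_neg (by omega),
      if_neg (by omega)]
    simp
  · intro m hm hms
    rw [h1, coeff_add, coeff_add, coeff_one, coeff_X, coeff_X_pow_mul', if_neg (by omega),
      if_neg (by omega), if_neg (by omega)]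
    simp

section Key

variable {A W : Type*} [CommRing A] [Algebra ℂ A] [AddCommGroup W] [Module ℂ W]

/-- The diagonal case. -/
lemma key1 {s q D D2 : ℕ} (hs : 1 ≤ s) (hq : 1 ≤ q)
    (T : MultilinearMap ℂ (fun _ : Fin s => A) W) (y : Fin s → A) {φ f2 h : A}
    (hφ : φ ∈ AH (Mono y D) 1) (hf2 : f2 ∈ AH (Mono y D2) 1) (hh : h ∈ AH (Mono y D) 1) :
    T (fun _ => f2 ^ q * (φ ^ (s * q - 1) * h)) ∈
      AH {x | ∃ f ∈ AH (Mono y (s * D + D2)) 1, x = T (fun _ => f ^ q)}
        (((s : ℝ) + 1) ^ (s * q)) := by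
  classical
  obtain ⟨p, hp1, hp2, hp3⟩ := exists_root_norm q hq s
  obtain ⟨hc1, hc2⟩ := root_coeff hp3
  obtain ⟨G, hG⟩ : ∃ G : ℕ → A, G = fun m =>
    (p ^ q).coeff m • (f2 ^ q * (h ^ m * φ ^ (s * q - m))) := ⟨_, rfl⟩
  have hs1 : ((s : ℂ) + 1) ≠ 0 := by
    have : ((s : ℂ) + 1) = ((s + 1 : ℕ) : ℂ) := by push_cast; ring
    rw [this]
    exact_mod_cast Nat.succ_ne_zero s
  have hs1n : ‖((s : ℂ) + 1)‖ = (s : ℝ) + 1 := by
    have : ((s : ℂ) + 1) = ((s + 1 : ℕ) : ℂ) := by push_cast; ring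
    rw [this, Complex.norm_natCast]
    push_cast
    ring
  -- the normalised forms
  let fr : ℂ → A := fun t =>
    ∑ j ∈ range (s + 1), (((s : ℂ) + 1)⁻¹ * (p.coeff j * t ^ j)) • (f2 * (h ^ j * φ ^ (s - j)))
  have hfr : ∀ t, ((s : ℂ) + 1) • fr t =
      f2 * ∑ j ∈ range (s + 1), p.coeff j • ((t • h) ^ j * φ ^ (s - j)) := by
    intro t
    simp only [fr]
    rw [Finset.smul_sum, Finset.mul_sum]
    refine Finset.sum_congr rfl fun j _ => ?_
    rw [smul_smul, ← mul_assoc, mul_inv_cancel₀ hs1, one_mul]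
    simp only [Algebra.smul_def, map_pow, map_mul]
    ring
  have hpow : ∀ t : ℂ, (((s : ℂ) + 1) • fr t) ^ q =
      ∑ m ∈ range (s * q + 1), t ^ m • G m := by
    intro t
    rw [hfr, mul_pow, hom_pow p hp1, Finset.mul_sum]
    apply Finset.sum_congr rfl
    intro m _
    simp only [hG, Algebra.smul_def, map_pow]
    ring
  have hfrm : ∀ t : ℂ, ‖t‖ = 1 → fr t ∈ AH (Mono y (s * D + D2)) 1 := by
    intro t ht
    apply ah_sum_finset
    · intro j hj
      rw [mem_range] at hj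
      have h1 := ah_mul y hf2 (ah_mul y (ah_pow y hh j) (ah_pow y hφ (s - j)))
      have h2 : D2 + (j * D + (s - j) * D) = s * D + D2 := by
        rw [← Nat.add_mul, Nat.add_sub_cancel' (by omega), Nat.add_comm]
      rwa [h2] at h1
    · calc ∑ j ∈ range (s + 1), ‖((s : ℂ) + 1)⁻¹ * (p.coeff j * t ^ j)‖
          ≤ ∑ j ∈ range (s + 1), ((s : ℝ) + 1)⁻¹ := by
            refine Finset.sum_le_sum fun j _ => ?_
            rw [norm_mul, norm_mul, norm_pow, ht, one_pow, mul_one, norm_inv, hs1n]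
            have h3 : (0 : ℝ) ≤ ((s : ℝ) + 1)⁻¹ := by positivity
            calc _ ≤ ((s : ℝ) + 1)⁻¹ * 1 := mul_le_mul_of_nonneg_left (hp2 j) h3
              _ = _ := mul_one _
        _ = 1 := by
            rw [Finset.sum_const, card_range, nsmul_eq_mul]
            push_cast
            rw [mul_inv_cancel₀]
            positivity
  -- the expansion
  let R : Finset (Fin s → ℕ) := Fintype.piFinset (fun _ => range (s * q + 1))
  have hexp : ∀ t : ℂ, ((((s : ℂ) + 1) ^ q) ^ s) • T (fun _ => fr t ^ q) =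
      ∑ r ∈ R, (t ^ (∑ i, r i)) • T (fun i => G (r i)) := by
    intro t
    have h1 := MultilinearMap.map_smul_univ T (fun _ : Fin s => ((s : ℂ) + 1) ^ q)
      (fun _ => fr t ^ q)
    rw [Finset.prod_const, Finset.card_univ, Fintype.card_fin] at h1
    rw [← h1]
    have h2 : (fun _ : Fin s => (((s : ℂ) + 1) ^ q) • fr t ^ q) =
        fun _ : Fin s => ∑ m ∈ range (s * q + 1), t ^ m • G m := by
      funext i
      rw [← hpow t, _root_.smul_pow]
    rw [h2, MultilinearMap.map_sum_finset]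
    apply Finset.sum_congr rfl
    intro r _
    rw [MultilinearMap.map_smul_univ, Finset.prod_pow_eq_pow_sum]
  -- averaging
  obtain ⟨N, hN⟩ : ∃ N : ℕ, N = s * (s * q) + s + 1 := ⟨_, rfl⟩
  have hN0 : N ≠ 0 := by omega
  have hω := Complex.isPrimitiveRoot_exp N hN0
  obtain ⟨ω, hωd⟩ : ∃ ω : ℂ, ω = Complex.exp (2 * Real.pi * Complex.I / N) := ⟨_, rfl⟩
  rw [← hωd] at hω
  have hRs : ∀ r ∈ R, ∑ i, r i < N := by
    intro r hr
    rw [Fintype.mem_piFinset] at hr
    have h1 : ∑ i, r i ≤ ∑ _i : Fin s, s * q :=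
      Finset.sum_le_sum fun i _ => by have := hr i; rw [mem_range] at this; omega
    rw [Finset.sum_const, Finset.card_univ, Fintype.card_fin, smul_eq_mul] at h1
    omega
  have hav := avg hω R (fun r => ∑ i, r i) (fun r => T (fun i => G (r i))) hRs
    (m := s) (by omega)
  have h3 : ∀ r ∈ R.filter (fun r => ∑ i, r i = s), r ≠ (fun _ => 1) →
      T (fun i => G (r i)) = 0 := by
    intro r hr hne
    rw [Finset.mem_filter] at hr
    have h4 : ∃ i, 2 ≤ r i := by
      by_contra hcon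
      push Not at hcon
      apply hne
      funext i
      have h5 : ∀ j, r j ≤ 1 := fun j => by have := hcon j; omega
      by_contra hi
      have h6 : ∑ j, r j < ∑ _j : Fin s, 1 :=
        Finset.sum_lt_sum (fun j _ => h5 j) ⟨i, Finset.mem_univ _, by have := h5 i; omega⟩
      rw [Finset.sum_const, Finset.card_univ, Fintype.card_fin, smul_eq_mul, mul_one] at h6
      omega
    obtain ⟨i, hi⟩ := h4
    have h5 : r i ≤ s := by
      rw [← hr.2]
      exact Finset.single_le_sum (fun _ _ => Nat.zero_le _) (Finset.mem_univ i)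
    apply MultilinearMap.map_coord_zero _ i
    rw [hG]
    simp only
    rw [hc2 _ hi h5, zero_smul]
  have h4 : (fun _ => 1 : Fin s → ℕ) ∈ R.filter (fun r => ∑ i, r i = s) := by
    rw [Finset.mem_filter]
    refine ⟨Fintype.mem_piFinset.2 (fun _ => ?_), by simp⟩
    rw [mem_range]
    have : 1 ≤ s * q := Nat.mul_pos hs hq
    omega
  rw [Finset.sum_eq_single_of_mem _ h4 (fun r hr hne => h3 r hr hne)] at hav
  have h5 : T (fun _ => f2 ^ q * (φ ^ (s * q - 1) * h)) = T (fun _ => G 1) := by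
    congr 1
    funext i
    rw [hG]
    simp only
    rw [hc1 hs, one_smul, pow_one, mul_comm h]
  rw [h5, ← hav]
  have h6 : ∀ k ∈ range N, ((N : ℂ)⁻¹ * (ω ^ k) ^ (N - s)) •
      ∑ r ∈ R, ((ω ^ k) ^ (∑ i, r i)) • T (fun i => G (r i)) =
      (((N : ℂ)⁻¹ * (ω ^ k) ^ (N - s)) * ((((s : ℂ) + 1) ^ q) ^ s)) •
        T (fun _ => fr (ω ^ k) ^ q) := by
    intro k _
    rw [← hexp, smul_smul]
  rw [Finset.sum_congr rfl h6]
  apply ah_sum_finset
  · intro k _
    apply ah_gen
    refine ⟨fr (ω ^ k), hfrm _ ?_, rfl⟩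
    rw [norm_pow, hω.norm'_eq_one hN0, one_pow]
  · have h7 : ∀ k ∈ range N, ‖(((N : ℂ)⁻¹ * (ω ^ k) ^ (N - s)) * ((((s : ℂ) + 1) ^ q) ^ s))‖ =
        (N : ℝ)⁻¹ * ((s : ℝ) + 1) ^ (s * q) := by
      intro k _
      rw [norm_mul, weight_norm hω hN0, norm_pow, norm_pow, hs1n, ← pow_mul, mul_comm q s]
    rw [Finset.sum_congr rfl h7, Finset.sum_const, card_range, nsmul_eq_mul, ← mul_assoc,
      mul_inv_cancel₀ (by exact_mod_cast hN0), one_mul]

/-- Sign. -/
def sg (b : Bool) : ℂ := if b then 1 else -1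

lemma sg_norm (b : Bool) : ‖sg b‖ = 1 := by
  cases b <;> simp [sg]

lemma sg_not (b : Bool) : sg (!b) = - sg b := by
  cases b <;> simp [sg]

lemma sg_sq (b : Bool) : sg b * sg b = 1 := by
  cases b <;> simp [sg]

/-- Polarisation by signs. -/
lemma polar {s : ℕ} (T : MultilinearMap ℂ (fun _ : Fin s => A) W) (hT : Sy T) (h : Fin s → A) :
    ∃ M : ℕ, 1 ≤ M ∧ ((2 : ℂ) ^ s * M) • T h =
      ∑ ε : Fin s → Bool, (∏ i, sg (ε i)) • T (fun _ => ∑ i, sg (ε i) • h i) := by
  classical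
  refine ⟨((univ : Finset (Fin s → Fin s)).filter (fun r => Function.Bijective r)).card, ?_, ?_⟩
  · rw [Nat.succ_le_iff, Finset.card_pos]
    exact ⟨id, Finset.mem_filter.2 ⟨Finset.mem_univ _, Function.bijective_id⟩⟩
  have h1 : ∀ ε : Fin s → Bool, (∏ i, sg (ε i)) • T (fun _ => ∑ i, sg (ε i) • h i) =
      ∑ r : Fin s → Fin s, ((∏ i, sg (ε i)) * ∏ k, sg (ε (r k))) • T (fun k => h (r k)) := by
    intro ε
    rw [MultilinearMap.map_sum, Finset.smul_sum]
    refine Finset.sum_congr rfl fun r _ => ?_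
    rw [MultilinearMap.map_smul_univ, smul_smul]
  rw [Finset.sum_congr rfl (fun ε _ => h1 ε), Finset.sum_comm]
  have h2 : ∀ r : Fin s → Fin s,
      ∑ ε : Fin s → Bool, ((∏ i, sg (ε i)) * ∏ k, sg (ε (r k))) • T (fun k => h (r k)) =
      if Function.Bijective r then ((2 : ℂ) ^ s) • T h else 0 := by
    intro r
    rw [← Finset.sum_smul]
    by_cases hr : Function.Bijective r
    · rw [if_pos hr]
      have h3 : ∀ ε : Fin s → Bool, (∏ i, sg (ε i)) * ∏ k, sg (ε (r k)) = 1 := by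
        intro ε
        have h4 : ∏ k, sg (ε (r k)) = ∏ i, sg (ε i) :=
          Function.Bijective.prod_comp hr (fun i => sg (ε i))
        rw [h4, ← Finset.prod_mul_distrib]
        exact Finset.prod_eq_one fun i _ => sg_sq _
      rw [Finset.sum_congr rfl (fun ε _ => h3 ε), Finset.sum_const, Finset.card_univ]
      have h5 : T (fun k => h (r k)) = T h := by
        have h6 := hT (Equiv.ofBijective r hr) h
        simpa using h6
      rw [h5]
      simp
    · rw [if_neg hr]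
      have hsurj : ¬ Function.Surjective r := fun h4 => hr (Finite.surjective_iff_bijective.1 h4)
      rw [Function.Surjective] at hsurj
      push Not at hsurj
      obtain ⟨i0, hi0⟩ := hsurj
      have h3 : ∑ ε : Fin s → Bool, (∏ i, sg (ε i)) * ∏ k, sg (ε (r k)) = 0 := by
        refine Finset.sum_involution (fun ε _ => Function.update ε i0 (!(ε i0))) ?_ ?_ ?_ ?_
        · intro ε _
          have h4 : ∏ i, sg (Function.update ε i0 (!(ε i0)) i) = - ∏ i, sg (ε i) := by
            rw [← Finset.mul_prod_erase univ _ (Finset.mem_univ i0),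
              ← Finset.mul_prod_erase univ (fun i => sg (ε i)) (Finset.mem_univ i0),
              Function.update_self, sg_not, neg_mul]
            congr 2
            refine Finset.prod_congr rfl fun i hi => ?_
            rw [Function.update_of_ne (Finset.ne_of_mem_erase hi)]
          have h5 : ∏ k, sg (Function.update ε i0 (!(ε i0)) (r k)) = ∏ k, sg (ε (r k)) := by
            refine Finset.prod_congr rfl fun k _ => ?_
            rw [Function.update_of_ne (hi0 k)]
          rw [h4, h5]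
          ring
        · intro ε _ _ h4
          have h5 := congrFun h4 i0
          rw [Function.update_self] at h5
          cases hb : ε i0 <;> simp [hb] at h5
        · intro ε _
          exact Finset.mem_univ _
        · intro ε _
          simp
      rw [h3, zero_smul]
  rw [Finset.sum_congr rfl (fun r _ => h2 r), ← Finset.sum_filter, Finset.sum_const,
    ← Nat.cast_smul_eq_nsmul ℂ, smul_smul, mul_comm]

/-- **KEY.** -/
theorem rowKEY : RowKEY := by
  classical
  intro s q D D2 hs hq A W _ _ _ _ T hT y φ hφ f2 hf2 h hh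
  -- the composed map
  let T' : MultilinearMap ℂ (fun _ : Fin s => A) W :=
    T.compLinearMap (fun _ => LinearMap.mulLeft ℂ (f2 ^ q * φ ^ (s * q - 1)))
  have hT' : ∀ v : Fin s → A, T' v = T (fun i => f2 ^ q * (φ ^ (s * q - 1) * v i)) := by
    intro v
    simp only [T', MultilinearMap.compLinearMap_apply, LinearMap.mulLeft_apply, mul_assoc]
  have hSy : Sy T' := by
    intro σ P
    rw [hT', hT']
    exact hT σ (fun i => f2 ^ q * (φ ^ (s * q - 1) * P i))
  obtain ⟨M, hM, hpol⟩ := polar T' hSy h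
  have hs0 : (s : ℂ) ≠ 0 := by
    have : s ≠ 0 := by omega
    exact_mod_cast this
  have hM0 : ((2 : ℂ) ^ s * M) ≠ 0 := by
    have : M ≠ 0 := by omega
    have h1 : (M : ℂ) ≠ 0 := by exact_mod_cast this
    exact mul_ne_zero (pow_ne_zero _ two_ne_zero) h1
  -- averages
  let g : (Fin s → Bool) → A := fun ε => ∑ i, ((s : ℂ)⁻¹ * sg (ε i)) • h i
  have hg : ∀ ε, g ε ∈ AH (Mono y D) 1 := by
    intro ε
    apply ah_sum _ _ hh
    have h1 : ∀ i : Fin s, ‖(s : ℂ)⁻¹ * sg (ε i)‖ = (s : ℝ)⁻¹ := by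
      intro i
      rw [norm_mul, sg_norm, mul_one, norm_inv, Complex.norm_natCast]
    rw [Finset.sum_congr rfl (fun i _ => h1 i), Finset.sum_const, Finset.card_univ,
      Fintype.card_fin, nsmul_eq_mul, mul_inv_cancel₀]
    have : s ≠ 0 := by omega
    exact_mod_cast this
  have hgs : ∀ ε, T' (fun _ => ∑ i, sg (ε i) • h i) = ((s : ℂ) ^ s) • T' (fun _ => g ε) := by
    intro ε
    have h1 := MultilinearMap.map_smul_univ T' (fun _ : Fin s => (s : ℂ)) (fun _ => g ε)
    rw [Finset.prod_const, Finset.card_univ, Fintype.card_fin] at h1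
    rw [← h1]
    congr 1
    funext i
    simp only [g]
    rw [Finset.smul_sum]
    refine Finset.sum_congr rfl fun j _ => ?_
    rw [smul_smul, ← mul_assoc, mul_inv_cancel₀ hs0, one_mul]
  have h1 : T (fun i => f2 ^ q * (φ ^ (s * q - 1) * h i)) =
      ∑ ε : Fin s → Bool, (((2 : ℂ) ^ s * M)⁻¹ * (∏ i, sg (ε i)) * (s : ℂ) ^ s) •
        T (fun _ => f2 ^ q * (φ ^ (s * q - 1) * g ε)) := by
    rw [← hT', ← inv_smul_smul₀ hM0 (T' h), hpol, Finset.smul_sum]
    refine Finset.sum_congr rfl fun ε _ => ?_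
    rw [hgs, smul_smul, smul_smul, hT']
  rw [h1]
  have h2 : ∀ ε : Fin s → Bool, T (fun _ => f2 ^ q * (φ ^ (s * q - 1) * g ε)) ∈
      AH {x | ∃ f ∈ AH (Mono y (s * D + D2)) 1, x = T (fun _ => f ^ q)}
        (((s : ℝ) + 1) ^ (s * q)) := fun ε => key1 hs hq T y hφ hf2 (hg ε)
  have h3 := ah_trans (G := AH {x | ∃ f ∈ AH (Mono y (s * D + D2)) 1, x = T (fun _ => f ^ q)}
        (((s : ℝ) + 1) ^ (s * q))) (c := (s : ℝ) ^ s) (by positivity) (fun x hx => hx)
        (ah_of (fun ε : Fin s → Bool => (((2 : ℂ) ^ s * M)⁻¹ * (∏ i, sg (ε i)) * (s : ℂ) ^ s))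
          (fun ε => T (fun _ => f2 ^ q * (φ ^ (s * q - 1) * g ε))) h2 ?_)
  · exact h3
  · have h4 : ∀ ε : Fin s → Bool, ‖((2 : ℂ) ^ s * M)⁻¹ * (∏ i, sg (ε i)) * (s : ℂ) ^ s‖ =
        ((2 : ℝ) ^ s * M)⁻¹ * (s : ℝ) ^ s := by
      intro ε
      have h5 : ‖∏ i, sg (ε i)‖ = 1 := by
        rw [norm_prod]
        exact Finset.prod_eq_one fun i _ => sg_norm _
      rw [norm_mul, norm_mul, h5, mul_one, norm_inv, norm_mul, norm_pow, norm_pow,
        Complex.norm_natCast, Complex.norm_natCast]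
      norm_num
    rw [Finset.sum_congr rfl (fun ε _ => h4 ε), Finset.sum_const, Finset.card_univ, nsmul_eq_mul]
    have h6 : Fintype.card (Fin s → Bool) = 2 ^ s := by simp
    rw [h6]
    push_cast
    have h7 : (1 : ℝ) ≤ M := by exact_mod_cast hM
    have h8 : (0 : ℝ) < 2 ^ s := by positivity
    have h9 : (2 : ℝ) ^ s * (((2 : ℝ) ^ s * M)⁻¹ * (s : ℝ) ^ s) = (M : ℝ)⁻¹ * (s : ℝ) ^ s := by
      field_simp
    rw [h9]
    have h10 : (M : ℝ)⁻¹ ≤ 1 := inv_le_one_of_one_le₀ h7
    calc _ ≤ 1 * (s : ℝ) ^ s := mul_le_mul_of_nonneg_right h10 (by positivity)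
      _ = _ := one_mul _

end Key

end Vale.Agent.P181.H774
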