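import Vale.Agent.P181.H303.Spec
import Mathlib.Algebra.Polynomial.Homogenize
import Mathlib.RingTheory.PowerSeries.Binomial

/-!
P181: toolkit for `AH`, truncated `q`-th roots of `1 + X` with coefficients of modulus `≤ 1`,
coefficient extraction by roots of unity, polarisation by signs.
-/

set_option autoImplicit false

namespace Vale.Agent.P181.H774

open Finset Vale.Agent.P181.H303

/-! ### AH -/

section AHkit

variable {W : Type*} [AddCommGroup W] [Module ℂ W]

lemma ah_of {ι : Type*} [Fintype ι] {G : Set W} {c : ℝ} (w : ι → ℂ) (g : ι → W)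
    (hg : ∀ i, g i ∈ G) (hw : ∑ i, ‖w i‖ ≤ c) : ∑ i, w i • g i ∈ AH G c := by
  classical
  let e := Fintype.equivFin ι
  refine ⟨Fintype.card ι, fun i => w (e.symm i), fun i => g (e.symm i), fun i => hg _, ?_, ?_⟩
  · rw [e.symm.sum_comp (fun i => ‖w i‖)]
    exact hw
  · exact (e.symm.sum_comp (fun i => w i • g i)).symm

lemma ah_gen {G : Set W} {g : W} (hg : g ∈ G) : g ∈ AH G 1 := by
  have h := ah_of (ι := Unit) (G := G) (c := 1) (fun _ => 1) (fun _ => g) (fun _ => hg) (by simp)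
  simpa using h

lemma ah_mono {G : Set W} {c c' : ℝ} (h : c ≤ c') {x : W} (hx : x ∈ AH G c) : x ∈ AH G c' := by
  obtain ⟨m, w, g, h1, h2, h3⟩ := hx
  exact ⟨m, w, g, h1, h2.trans h, h3⟩

lemma ah_trans {G G' : Set W} {c c' : ℝ} (hc' : 0 ≤ c') (hG : ∀ g ∈ G, g ∈ AH G' c') {x : W}
    (hx : x ∈ AH G c) : x ∈ AH G' (c * c') := by
  obtain ⟨m, w, g, h1, h2, rfl⟩ := hx
  choose k u f hf hu hfe using fun i => hG (g i) (h1 i)
  have h3 : ∑ i, w i • g i = ∑ p : (Σ i, Fin (k i)), (w p.1 * u p.1 p.2) • f p.1 p.2 := by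
    rw [Fintype.sum_sigma]
    refine Finset.sum_congr rfl fun i _ => ?_
    rw [hfe i, Finset.smul_sum]
    simp only [smul_smul]
  rw [h3]
  apply ah_of
  · intro p
    exact hf _ _
  · rw [Fintype.sum_sigma]
    calc ∑ i, ∑ j, ‖w i * u i j‖ = ∑ i, ‖w i‖ * ∑ j, ‖u i j‖ := by
          simp only [norm_mul, Finset.mul_sum]
      _ ≤ ∑ i, ‖w i‖ * c' :=
          Finset.sum_le_sum fun i _ => mul_le_mul_of_nonneg_left (hu i) (norm_nonneg _)
      _ = (∑ i, ‖w i‖) * c' := by rw [Finset.sum_mul]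
      _ ≤ c * c' := mul_le_mul_of_nonneg_right h2 hc'

lemma ah_sum {ι : Type*} [Fintype ι] {G : Set W} {c : ℝ} (w : ι → ℂ) (x : ι → W)
    (hx : ∀ i, x i ∈ AH G 1) (hw : ∑ i, ‖w i‖ ≤ c) : ∑ i, w i • x i ∈ AH G c := by
  have h := ah_trans (G := AH G 1) (G' := G) (c := c) (c' := 1) zero_le_one (fun g hg => hg)
    (ah_of w x hx hw)
  rwa [mul_one] at h

lemma ah_sum_finset {ι : Type*} {G : Set W} {c : ℝ} (R : Finset ι) (w : ι → ℂ) (x : ι → W)
    (hx : ∀ i ∈ R, x i ∈ AH G 1) (hw : ∑ i ∈ R, ‖w i‖ ≤ c) : ∑ i ∈ R, w i • x i ∈ AH G c := by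
  classical
  rw [← Finset.sum_coe_sort R (fun i => w i • x i)]
  apply ah_sum (fun i : R => w i) (fun i : R => x i) (fun i => hx i i.2)
  rw [Finset.sum_coe_sort R (fun i => ‖w i‖)]
  exact hw

end AHkit

section Monos

variable {A : Type*} [CommRing A] [Algebra ℂ A] {s : ℕ} (y : Fin s → A)

omit [Algebra ℂ A] in
lemma mono_mul {m m' : ℕ} {x x' : A} (hx : x ∈ Mono y m) (hx' : x' ∈ Mono y m') :
    x * x' ∈ Mono y (m + m') := by
  obtain ⟨α, h1, rfl⟩ := hx
  obtain ⟨β, h2, rfl⟩ := hx'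
  refine ⟨fun i => α i + β i, ?_, ?_⟩
  · rw [Finset.sum_add_distrib, h1, h2]
  · rw [← Finset.prod_mul_distrib]
    exact Finset.prod_congr rfl fun i _ => (pow_add _ _ _).symm

lemma ah_mul {m m' : ℕ} {x x' : A} (hx : x ∈ AH (Mono y m) 1) (hx' : x' ∈ AH (Mono y m') 1) :
    x * x' ∈ AH (Mono y (m + m')) 1 := by
  obtain ⟨k, w, g, h1, h2, rfl⟩ := hx
  obtain ⟨k', w', g', h1', h2', rfl⟩ := hx'
  have h3 : (∑ i, w i • g i) * (∑ i, w' i • g' i) =
      ∑ p : Fin k × Fin k', (w p.1 * w' p.2) • (g p.1 * g' p.2) := by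
    rw [Finset.sum_mul_sum, Fintype.sum_prod_type]
    refine Finset.sum_congr rfl fun i _ => Finset.sum_congr rfl fun j _ => ?_
    rw [smul_mul_smul_comm]
  rw [h3]
  apply ah_of
  · intro p
    exact mono_mul y (h1 _) (h1' _)
  · rw [Fintype.sum_prod_type]
    calc ∑ i, ∑ j, ‖w i * w' j‖ = (∑ i, ‖w i‖) * ∑ j, ‖w' j‖ := by
          simp only [norm_mul, Finset.sum_mul_sum]
      _ ≤ 1 * 1 := mul_le_mul h2 h2' (Finset.sum_nonneg fun i _ => norm_nonneg _) zero_le_one
      _ = 1 := one_mul 1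

lemma ah_pow {m : ℕ} {x : A} (hx : x ∈ AH (Mono y m) 1) (k : ℕ) :
    x ^ k ∈ AH (Mono y (k * m)) 1 := by
  induction k with
  | zero =>
    apply ah_gen
    refine ⟨fun _ => 0, by simp, by simp⟩
  | succ k ih =>
    rw [pow_succ, Nat.succ_mul]
    exact ah_mul y ih hx

end Monos

/-! ### roots of unity -/

lemma root_sum {N : ℕ} {ω : ℂ} (hω : IsPrimitiveRoot ω N) {n m : ℕ} (hn : n < N) (hm : m < N) :
    ∑ k ∈ range N, ((N : ℂ)⁻¹ * (ω ^ k) ^ (N - m)) * (ω ^ k) ^ n = if n = m then 1 else 0 := by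
  have hN : (N : ℂ) ≠ 0 := by
    have : N ≠ 0 := by omega
    exact_mod_cast this
  have h1 : ∀ k ∈ range N, ((N : ℂ)⁻¹ * (ω ^ k) ^ (N - m)) * (ω ^ k) ^ n =
      (N : ℂ)⁻¹ * (ω ^ (N - m + n)) ^ k := by
    intro k _
    rw [mul_assoc, ← pow_add, ← pow_mul, ← pow_mul, mul_comm k]
  rw [Finset.sum_congr rfl h1, ← Finset.mul_sum]
  by_cases h : n = m
  · subst h
    rw [if_pos rfl, Nat.sub_add_cancel (by omega), hω.pow_eq_one]
    simp [hN]
  · rw [if_neg h]
    have h2 : ω ^ (N - m + n) ≠ 1 := by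
      intro h3
      rw [hω.pow_eq_one_iff_dvd] at h3
      obtain ⟨c, hc⟩ := h3
      rcases Nat.lt_or_ge n m with h4 | h4
      · have h5 : 0 < N - m + n := by omega
        have h6 : N - m + n < N := by omega
        rcases Nat.eq_zero_or_pos c with h7 | h7
        · subst h7; omega
        · have := Nat.le_mul_of_pos_right N h7
          omega
      · have h6 : N < N - m + n := by omega
        have h7 : N - m + n < N * 2 := by omega
        rw [hc] at h6 h7
        have h8 : c < 2 := Nat.lt_of_mul_lt_mul_left h7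
        have h9 : 1 < c := by
          by_contra h10
          push Not at h10
          have := Nat.mul_le_mul_left N h10
          omega
        omega
    have h3 : (∑ k ∈ range N, (ω ^ (N - m + n)) ^ k) = 0 := by
      rw [geom_sum_eq h2, ← pow_mul, mul_comm _ N, pow_mul, hω.pow_eq_one, one_pow, sub_self,
        zero_div]
    rw [h3, mul_zero]

lemma avg {W : Type*} [AddCommGroup W] [Module ℂ W] {N : ℕ} {ω : ℂ} (hω : IsPrimitiveRoot ω N)
    {ι : Type*} (R : Finset ι) (e : ι → ℕ) (c : ι → W) (he : ∀ r ∈ R, e r < N) {m : ℕ}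
    (hm : m < N) :
    ∑ k ∈ range N, ((N : ℂ)⁻¹ * (ω ^ k) ^ (N - m)) • ∑ r ∈ R, ((ω ^ k) ^ (e r)) • c r =
      ∑ r ∈ R.filter (fun r => e r = m), c r := by
  simp only [Finset.smul_sum, smul_smul]
  rw [Finset.sum_comm, Finset.sum_filter]
  refine Finset.sum_congr rfl fun r hr => ?_
  rw [← Finset.sum_smul, root_sum hω (he r hr) hm]
  by_cases h : e r = m
  · rw [if_pos h, if_pos h, one_smul]
  · rw [if_neg h, if_neg h, zero_smul]

lemma weight_norm {N : ℕ} {ω : ℂ} (hω : IsPrimitiveRoot ω N) (hN : N ≠ 0) (k m : ℕ) :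
    ‖(N : ℂ)⁻¹ * (ω ^ k) ^ m‖ = (N : ℝ)⁻¹ := by
  rw [norm_mul, norm_pow, norm_pow, hω.norm'_eq_one hN, one_pow, one_pow, mul_one, norm_inv,
    Complex.norm_natCast]

/-! ### binomial series -/

open Polynomial in
lemma exists_root_norm (q : ℕ) (hq : 1 ≤ q) (s : ℕ) :
    ∃ p : ℂ[X], p.natDegree ≤ s ∧ (∀ j, ‖p.coeff j‖ ≤ 1) ∧ X ^ (s + 1) ∣ p ^ q - (1 + X) := by
  have hq0 : (q : ℂ) ≠ 0 := by
    have : q ≠ 0 := by omega
    exact_mod_cast this
  have hch : ∀ j : ℕ, ‖Ring.choose ((q : ℂ)⁻¹) j‖ ≤ 1 := by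
    intro j
    induction j with
    | zero => simp
    | succ j ih =>
      have h1 : ((j : ℂ) + 1) * Ring.choose ((q : ℂ)⁻¹) (j + 1) =
          Ring.choose ((q : ℂ)⁻¹) j * ((q : ℂ)⁻¹ - j) := by
        have h2 := Ring.choose_smul_choose ((q : ℂ)⁻¹) (n := j + 1) (k := j) (by omega)
        rw [Nat.add_sub_cancel_left, Ring.choose_one_right, nsmul_eq_mul,
          Nat.choose_succ_self_right] at h2
        rw [← h2]
        push_cast
        ring
      have h3 : ‖((j : ℂ) + 1)‖ * ‖Ring.choose ((q : ℂ)⁻¹) (j + 1)‖ ≤ (j : ℝ) + 1 := by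
        rw [← norm_mul, h1, norm_mul]
        have h4 : ‖((q : ℂ)⁻¹ - j)‖ ≤ (j : ℝ) + 1 := by
          refine (norm_sub_le _ _).trans ?_
          rw [norm_inv, Complex.norm_natCast, Complex.norm_natCast, add_comm]
          have h5 : ((q : ℝ))⁻¹ ≤ 1 := inv_le_one_of_one_le₀ (by exact_mod_cast hq)
          linarith
        calc _ ≤ 1 * ((j : ℝ) + 1) := mul_le_mul ih h4 (norm_nonneg _) zero_le_one
          _ = _ := one_mul _
      have h6 : ‖((j : ℂ) + 1)‖ = (j : ℝ) + 1 := by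
        have : ((j : ℂ) + 1) = ((j + 1 : ℕ) : ℂ) := by push_cast; ring
        rw [this, Complex.norm_natCast]
        push_cast
        ring
      rw [h6] at h3
      have h7 : (0 : ℝ) < (j : ℝ) + 1 := by positivity
      nlinarith
  let f : PowerSeries ℂ := PowerSeries.binomialSeries ℂ ((q : ℂ)⁻¹)
  have hf : f ^ q = 1 + PowerSeries.X := by
    have h1 : ∀ n : ℕ, f ^ n = PowerSeries.binomialSeries ℂ ((n : ℂ) * (q : ℂ)⁻¹) := by
      intro n
      induction n with
      | zero => simp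
      | succ n ih =>
        rw [pow_succ, ih, ← PowerSeries.binomialSeries_add]
        congr 1
        push_cast
        ring
    rw [h1 q, mul_inv_cancel₀ hq0]
    have h2 := PowerSeries.binomialSeries_nat (R := ℂ) (A := ℂ) 1
    rw [Nat.cast_one, pow_one] at h2
    exact h2
  refine ⟨f.trunc (s + 1), ?_, ?_, ?_⟩
  · have := PowerSeries.natDegree_trunc_lt f s
    omega
  · intro j
    rw [PowerSeries.coeff_trunc]
    split_ifs
    · simp only [f, PowerSeries.binomialSeries_coeff, smul_eq_mul, mul_one]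
      exact hch j
    · simp
  · rw [Polynomial.X_pow_dvd_iff]
    intro d hd
    have h1 : ((f.trunc (s + 1)) ^ q).coeff d = (f ^ q).coeff d := by
      have h2 := PowerSeries.trunc_trunc_pow f (s + 1) q
      have h3 := congrArg (fun P : ℂ[X] => P.coeff d) h2
      simp only [PowerSeries.coeff_trunc, if_pos hd] at h3
      rw [← h3, ← Polynomial.coe_pow, Polynomial.coeff_coe]
    rw [coeff_sub, h1, hf]
    have h4 : (1 + PowerSeries.X : PowerSeries ℂ) = ((1 + X : ℂ[X]) : PowerSeries ℂ) := by simp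
    rw [h4, Polynomial.coeff_coe, sub_self]

end Vale.Agent.P181.H774
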